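import Vale.Agent.P162.Final

/-!
# P162 : the Thorp shuffle of `2 ^ d` cards mixes in `O(d ^ 2)` shuffles
-/

namespace Vale.Agent.Results.P162.SquareBound

open Finset

/-- One Thorp shuffle of a deck of `2 * m` cards. The positions are numbered `0, ..., 2m - 1`, the
top half being `0, ..., m - 1`. For every `j < m` the cards in the positions `j` and `m + j` are
placed in the positions `2j` and `2j + 1`, in the order given by the coin `c j`. The function gives
the new position of the card which is in position `i`. -/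
def newPos (m : ℕ) (c : Fin m → Bool) (i : Fin (2 * m)) : ℕ :=
  if h : (i : ℕ) < m then 2 * (i : ℕ) + (if c ⟨i, h⟩ then 1 else 0)
  else 2 * ((i : ℕ) - m) + (if c ⟨(i : ℕ) - m, by omega⟩ then 0 else 1)

/-- The law `q_n`, `n = 2 * m`, of the permutation of the positions made by one Thorp shuffle with
independent fair coins. -/
noncomputable def q (m : ℕ) (g : Equiv.Perm (Fin (2 * m))) : ℝ :=
  ((univ.filter (fun c : Fin m → Bool => ∀ i, (g i : ℕ) = newPos m c i)).card : ℝ) / 2 ^ m

/-- The convolution power `q_n^{*t}`: the law after `t` independent Thorp shuffles. -/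
noncomputable def qPow (m : ℕ) : ℕ → Equiv.Perm (Fin (2 * m)) → ℝ
  | 0 => fun g => if g = 1 then 1 else 0
  | t + 1 => fun g => ∑ h, q m h * qPow m t (h⁻¹ * g)

/-- The total variation distance between `q_n^{*t}` and the uniform law on the symmetric group. -/
noncomputable def tv (m t : ℕ) : ℝ :=
  (1 / 2) * ∑ g : Equiv.Perm (Fin (2 * m)), |qPow m t g - 1 / ((2 * m).factorial : ℝ)|

/-- The mixing time of the Thorp shuffle of `n = 2 * m` cards. -/
noncomputable def tmix (m : ℕ) : ℕ := sInf {t : ℕ | tv m t ≤ 1 / 4}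

/-- There is an absolute constant `C` such that for every `d ≥ 1` the Thorp shuffle of
`n = 2 ^ d = 2 * 2 ^ (d - 1)` cards has mixing time at most `C * d ^ 2 = C * (log_2 n) ^ 2`. -/
theorem result : ∃ C : ℝ, ∀ d : ℕ, 1 ≤ d →
    (∀ t : ℕ, C * (d : ℝ) ^ 2 ≤ t → tv (2 ^ (d - 1)) t ≤ 1 / 4) ∧
      (tmix (2 ^ (d - 1)) : ℝ) ≤ C * (d : ℝ) ^ 2 := by
  have hq : ∀ m, q m = Vale.Agent.P162.thorpLaw m := fun m => rfl
  have hpow : ∀ m t, qPow m t = Vale.Agent.P162.thorpPow m t := by
    intro m t
    induction t with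
    | zero => rfl
    | succ t ih =>
      funext g
      show ∑ h, q m h * qPow m t (h⁻¹ * g) = ∑ h, Vale.Agent.P162.thorpLaw m h *
        Vale.Agent.P162.thorpPow m t (h⁻¹ * g)
      rw [hq, ih]
  have htv : ∀ m t, tv m t = Vale.Agent.P162.thorpTV m t := by
    intro m t
    unfold tv Vale.Agent.P162.thorpTV
    rw [hpow]
  have hmix : ∀ m, tmix m = Vale.Agent.P162.thorpMix m := by
    intro m
    unfold tmix Vale.Agent.P162.thorpMix
    simp only [htv]
  obtain ⟨C, _, h⟩ := Vale.Agent.P162.result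
  refine ⟨C, fun d hd => ?_⟩
  obtain ⟨e, rfl⟩ : ∃ e, d = e + 1 := ⟨d - 1, by omega⟩
  have h1 := h e
  rw [Nat.add_sub_cancel]
  push_cast
  simp only [htv, hmix]
  exact h1

end Vale.Agent.Results.P162.SquareBound
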